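import Vale.Agent.P328.Defs
import Vale.Agent.P328.Main

namespace Vale.Agent.Results.P328.Sampler

open Vale.Agent.P328

theorem result :
    ∃ (d : ℕ) (A : (Inst × ℕ) × List Bool → List (List ℕ))
      (tm : Turing.TM2ComputableInPolyTime (encPair encInst (encList encBool))
        (encList (encList encNat)) A),
      (∀ k, Finite (tm.tm.Γ k)) ∧
      ∀ (P : Inst) (ε : ℝ), 0 < ε → ε < 1 → ∀ ρ : ℕ, (encInst (P, ⌈1 / ε⌉₊)).length ^ d ≤ ρ →
        (∀ w : List Bool, w.length = ρ → ∃ X ∈ P.Omega, A ((P, ⌈1 / ε⌉₊), w) = rows X) ∧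
        1 / 2 * ∑ X ∈ P.Omega, |coinProb ρ (fun w => A ((P, ⌈1 / ε⌉₊), w) = rows X) -
          1 / (P.Omega.card : ℝ)| ≤ ε := by
  obtain ⟨tm, h⟩ := algo_poly
  refine ⟨207, algo, tm, h, fun P ε h0 _ ρ hρ => ⟨fun w _ => algo_mem P _ w,
    (algo_tv P _ (Nat.ceil_pos.mpr (by positivity)) ρ hρ).trans ?_⟩⟩
  rw [one_div_le (by positivity) h0]
  exact Nat.le_ceil _

end Vale.Agent.Results.P328.Sampler
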